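import Mathlib

/-!
# S0010, assembly step (A2–A6 of the plan `notes/s0010/PLAN.md`), abstract form

Fields `K`, `L` of characteristic `p`; `th : K → L` a representative map for a group isomorphism
`Kˣ/(Kˣ)^p → Lˣ/(Lˣ)^p`; the Line Lemma (with exponent `m = 1`) is a hypothesis.  We construct an
additive map `al : K → L` with `al 1 = 1` and `[th u] = [al u]` for all `u ≠ 0`.
-/

set_option autoImplicit false
set_option linter.unusedSectionVars false

namespace Crest.Agent.Helper33.S0010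

section defs

variable (p : ℕ) [Fact p.Prime] (L : Type*) [Field L] [CharP L p]

/-- The subfield `L^p` of `p`-th powers. -/
abbrev Fp : Subfield L := (frobenius L p).fieldRange

variable {L}

/-- The subfield `L^p(x)`. -/
abbrev adj (x : L) : Subfield L := Subfield.closure ((Fp p L : Set L) ∪ {x})

/-- `x, y` are `p`-independent: `x ∉ L^p` and `y ∉ L^p(x)`. -/
def PIndep (x y : L) : Prop := x ∉ Fp p L ∧ y ∉ adj p x

/-- `z'` is `z` times a nonzero `p`-th power, i.e. `[z] = [z']` in `Lˣ/(Lˣ)^p` (for nonzero `z`). -/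
def PEq (z z' : L) : Prop := ∃ e : L, e ≠ 0 ∧ z' = e ^ p * z

end defs

section basic

variable {p : ℕ} [Fact p.Prime] {L : Type*} [Field L] [CharP L p]

theorem mem_Fp {a : L} : a ∈ Fp p L ↔ ∃ b : L, b ^ p = a := by
  simp [Fp, RingHom.mem_fieldRange, frobenius_def]

theorem pow_mem_Fp (e : L) : e ^ p ∈ Fp p L := mem_Fp.2 ⟨e, rfl⟩

theorem Fp_le_adj (x : L) : Fp p L ≤ adj p x := fun _ ha =>
  Subfield.subset_closure (Or.inl ha)

theorem self_mem_adj (x : L) : x ∈ adj p x :=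
  Subfield.subset_closure (Or.inr rfl)

theorem adj_le {x x' : L} (h : x' ∈ adj p x) : adj p x' ≤ adj p x := by
  apply Subfield.closure_le.2
  rintro a (ha | ha)
  · exact Fp_le_adj x ha
  · rw [Set.mem_singleton_iff] at ha; rw [ha]; exact h

theorem PEq_iff {z z' : L} : PEq p z z' ↔ ∃ c ∈ Fp p L, c ≠ 0 ∧ z' = c * z := by
  constructor
  · rintro ⟨e, he, h⟩
    exact ⟨e ^ p, pow_mem_Fp e, pow_ne_zero _ he, h⟩
  · rintro ⟨c, hc, hc0, h⟩
    obtain ⟨e, rfl⟩ := mem_Fp.1 hc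
    exact ⟨e, fun h0 => hc0 (by rw [h0, zero_pow (Fact.out : p.Prime).ne_zero]), h⟩

theorem PEq.refl (z : L) : PEq p z z := ⟨1, one_ne_zero, by simp⟩

theorem PEq.symm {z z' : L} (h : PEq p z z') : PEq p z' z := by
  obtain ⟨e, he, rfl⟩ := h
  exact ⟨e⁻¹, inv_ne_zero he, by rw [inv_pow, inv_mul_cancel_left₀ (pow_ne_zero _ he)]⟩

theorem PEq.trans {z z' z'' : L} (h : PEq p z z') (h' : PEq p z' z'') : PEq p z z'' := by
  obtain ⟨e, he, rfl⟩ := h
  obtain ⟨e', he', rfl⟩ := h'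
  exact ⟨e' * e, mul_ne_zero he' he, by ring⟩

theorem PEq.mul {a a' b b' : L} (h : PEq p a a') (h' : PEq p b b') : PEq p (a * b) (a' * b') := by
  obtain ⟨e, he, rfl⟩ := h
  obtain ⟨e', he', rfl⟩ := h'
  exact ⟨e * e', mul_ne_zero he he', by ring⟩

theorem PEq.ne_zero {z z' : L} (h : PEq p z z') (hz : z ≠ 0) : z' ≠ 0 := by
  obtain ⟨e, he, rfl⟩ := h
  exact mul_ne_zero (pow_ne_zero _ he) hz

theorem PEq.mem_Fp {z z' : L} (h : PEq p z z') (hz : z ∈ Fp p L) : z' ∈ Fp p L := by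
  obtain ⟨e, he, rfl⟩ := h
  exact mul_mem (pow_mem_Fp e) hz

theorem PEq.mem_Fp_iff {z z' : L} (h : PEq p z z') : z ∈ Fp p L ↔ z' ∈ Fp p L :=
  ⟨h.mem_Fp, h.symm.mem_Fp⟩

theorem PEq.mem_adj {z z' : L} (h : PEq p z z') (x : L) (hz : z ∈ adj p x) : z' ∈ adj p x := by
  obtain ⟨e, he, rfl⟩ := h
  exact mul_mem (Fp_le_adj x (pow_mem_Fp e)) hz

theorem PEq.mem_adj_iff {z z' : L} (h : PEq p z z') (x : L) : z ∈ adj p x ↔ z' ∈ adj p x :=
  ⟨h.mem_adj x, h.symm.mem_adj x⟩

theorem PEq.adj_eq {z z' : L} (h : PEq p z z') : adj p z = adj p z' :=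
  le_antisymm (adj_le (h.symm.mem_adj z' (self_mem_adj z'))) (adj_le (h.mem_adj z (self_mem_adj z)))

/-- two nonzero `p`-th powers are `PEq` -/
theorem PEq_of_mem_Fp {z z' : L} (hz : z ∈ Fp p L) (hz' : z' ∈ Fp p L) (h0 : z ≠ 0) (h0' : z' ≠ 0) :
    PEq p z z' :=
  PEq_iff.2 ⟨z' / z, div_mem hz' hz, div_ne_zero h0' h0, by field_simp⟩

theorem PIndep.of_PEq {x y x' y' : L} (h : PIndep p x y) (hx : PEq p x x') (hy : PEq p y y') :
    PIndep p x' y' := by
  refine ⟨fun h' => h.1 (hx.mem_Fp_iff.2 h'), fun h' => h.2 ?_⟩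
  rw [hx.adj_eq]
  exact (hy.mem_adj_iff x').2 h'

/-- `1, x` are independent over `L^p` when `x ∉ L^p`. -/
theorem indep2 {x a b a' b' : L} (hx : x ∉ Fp p L) (ha : a ∈ Fp p L) (hb : b ∈ Fp p L)
    (ha' : a' ∈ Fp p L) (hb' : b' ∈ Fp p L) (h : a + b * x = a' + b' * x) : a = a' ∧ b = b' := by
  have hbb : b = b' := by
    by_contra hne
    apply hx
    have hne' : b - b' ≠ 0 := sub_ne_zero.2 hne
    have : x = (a' - a) / (b - b') := by
      field_simp
      linear_combination h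
    rw [this]
    exact div_mem (sub_mem ha' ha) (sub_mem hb hb')
  refine ⟨?_, hbb⟩
  rw [hbb] at h
  exact add_right_cancel h

/-- `1, x, y` are independent over `L^p` when `x, y` are `p`-independent. -/
theorem indep3 {x y a b c a' b' c' : L} (hxy : PIndep p x y) (ha : a ∈ Fp p L) (hb : b ∈ Fp p L)
    (hc : c ∈ Fp p L) (ha' : a' ∈ Fp p L) (hb' : b' ∈ Fp p L) (hc' : c' ∈ Fp p L)
    (h : a + b * x + c * y = a' + b' * x + c' * y) : a = a' ∧ b = b' ∧ c = c' := by
  have hcc : c = c' := by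
    by_contra hne
    apply hxy.2
    have hne' : c - c' ≠ 0 := sub_ne_zero.2 hne
    have : y = ((a' - a) + (b' - b) * x) / (c - c') := by
      field_simp
      linear_combination h
    rw [this]
    exact div_mem (add_mem (Fp_le_adj x (sub_mem ha' ha))
      (mul_mem (Fp_le_adj x (sub_mem hb' hb)) (self_mem_adj x))) (Fp_le_adj x (sub_mem hc hc'))
  rw [hcc] at h
  have h2 := indep2 hxy.1 ha hb ha' hb' (add_right_cancel h)
  exact ⟨h2.1, h2.2, hcc⟩

/-- Uniqueness of the translation: `x ∉ L^p`, `[x + μ] = [x + μ']` with `μ, μ' ∈ L^p` gives `μ = μ'`. -/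
theorem PEq_add_unique {x m m' : L} (hx : x ∉ Fp p L) (hm : m ∈ Fp p L) (hm' : m' ∈ Fp p L)
    (h : PEq p (x + m) (x + m')) : m = m' := by
  obtain ⟨c, hc, hc0, h⟩ := PEq_iff.1 h
  have h' : m' + 1 * x = c * m + c * x := by linear_combination h
  have := indep2 hx hm' (one_mem _) (mul_mem hc hm) hc h'
  rw [← this.2, one_mul] at this
  exact this.1.symm

/-- Uniqueness of the normalised representative. -/
theorem PEq_normal_unique {z z' : L} (hz : z ∉ Fp p L) (h : PEq p z z') (h1 : PEq p (z + 1) (z' + 1)) :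
    z = z' := by
  obtain ⟨a, ha, ha0, rfl⟩ := PEq_iff.1 h
  obtain ⟨b, hb, hb0, h1⟩ := PEq_iff.1 h1
  have h' : (1 : L) + a * z = b + b * z := by linear_combination h1
  have := indep2 hz (one_mem _) ha hb hb h'
  rw [this.2, ← this.1, one_mul]

end basic

section main

variable (p : ℕ) [Fact p.Prime] {K L : Type*} [Field K] [Field L] [CharP K p] [CharP L p]

/-- Hypotheses of the assembly step: `th` represents a group isomorphism `Kˣ/(Kˣ)^p ≃ Lˣ/(Lˣ)^p`
satisfying the Line Lemma with exponent `1`. -/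
structure Hyp (th : K → L) : Prop where
  zero : th 0 = 0
  ne_zero : ∀ u, u ≠ 0 → th u ≠ 0
  mul : ∀ u v, u ≠ 0 → v ≠ 0 → PEq p (th u * th v) (th (u * v))
  inj : ∀ u, u ≠ 0 → th u ∈ Fp p L → u ∈ Fp p K
  surj : ∀ z : L, z ≠ 0 → ∃ u, u ≠ 0 ∧ PEq p z (th u)
  line : ∀ f g, f ≠ 0 → g ≠ 0 → PIndep p (th f) (th g) →
    ∃ P Q : L, ∃ lam : K → L, lam 1 ≠ 0 ∧ lam 0 = 0 ∧ (∀ c ∈ Fp p K, lam c ∈ Fp p L) ∧
      ∀ c ∈ Fp p K, PEq p (th (f + c)) (P + lam c) ∧ PEq p (th (g - c)) (Q - lam c) ∧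
        PEq p (th (f + g)) (P + Q)
  symm : ∀ x y : L, PIndep p x y → PIndep p y x
  part : ∀ x : L, x ∉ Fp p L → ∃ y, y ∉ adj p x
  np : ∃ x : L, x ∉ Fp p L

variable {p}
variable {th : K → L}

namespace Hyp

variable (H : Hyp p th)
include H

theorem th_one_mem : th 1 ∈ Fp p L := by
  obtain ⟨c, hc, hc0, h⟩ := PEq_iff.1 (H.mul 1 1 one_ne_zero one_ne_zero)
  rw [mul_one] at h
  have h1 : th (1 : K) ≠ 0 := H.ne_zero 1 one_ne_zero
  have : th (1 : K) = c⁻¹ := by
    field_simp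
    have h2 : th (1 : K) * (c * th 1 - 1) = 0 := by linear_combination -h
    rcases mul_eq_zero.1 h2 with h3 | h3
    · exact absurd h3 h1
    · linear_combination h3
  rw [this]
  exact inv_mem hc

theorem th_pow {u : K} (hu : u ≠ 0) (n : ℕ) : PEq p (th u ^ (n + 1)) (th (u ^ (n + 1))) := by
  induction n with
  | zero => simpa using PEq.refl (p := p) (th u)
  | succ n ih =>
    rw [pow_succ (th u), pow_succ u]
    exact (ih.mul (PEq.refl _)).trans (H.mul _ _ (pow_ne_zero _ hu) hu)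

theorem th_mem_of_mem {u : K} (hu : u ≠ 0) (h : u ∈ Fp p K) : th u ∈ Fp p L := by
  obtain ⟨b, rfl⟩ := mem_Fp.1 h
  have hb : b ≠ 0 := by
    rintro rfl
    exact hu (zero_pow (Fact.out : p.Prime).ne_zero)
  obtain ⟨n, hn⟩ : ∃ n, p = n + 1 := ⟨p - 1, (Nat.succ_pred_eq_of_pos (Fact.out : p.Prime).pos).symm⟩
  have := H.th_pow hb n
  rw [← hn] at this
  exact this.mem_Fp (pow_mem_Fp _)

theorem th_mem_iff {u : K} (hu : u ≠ 0) : th u ∈ Fp p L ↔ u ∈ Fp p K :=
  ⟨H.inj u hu, H.th_mem_of_mem hu⟩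

theorem not_mem_ne_zero {u : K} (hu : u ∉ Fp p K) : u ≠ 0 := by
  rintro rfl
  exact hu (zero_mem _)

theorem th_not_mem {u : K} (hu : u ∉ Fp p K) : th u ∉ Fp p L := fun h =>
  hu ((H.th_mem_iff (H.not_mem_ne_zero hu)).1 h)

/-- multiplying by a nonzero `p`-th power does not change the class -/
theorem th_mul_Fp {c u : K} (hc : c ∈ Fp p K) (hc0 : c ≠ 0) (hu : u ≠ 0) :
    PEq p (th u) (th (c * u)) := by
  refine PEq.trans ?_ (H.mul c u hc0 hu)
  exact PEq_iff.2 ⟨th c, H.th_mem_of_mem hc0 hc, H.ne_zero c hc0, rfl⟩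

/-- injectivity on classes -/
theorem th_div {a b : K} (ha : a ≠ 0) (hb : b ≠ 0) (h : PEq p (th a) (th b)) : a / b ∈ Fp p K := by
  have hab : a / b ≠ 0 := div_ne_zero ha hb
  apply H.inj _ hab
  have h1 : PEq p (th (a / b) * th b) (th a) := by
    have := H.mul (a / b) b hab hb
    rwa [div_mul_cancel₀ a hb] at this
  obtain ⟨c, hc, hc0, h2⟩ := PEq_iff.1 (h1.trans h)
  have hthb : th b ≠ 0 := H.ne_zero b hb
  have : th (a / b) = c⁻¹ := by
    field_simp
    have h3 : th b * (c * th (a / b) - 1) = 0 := by linear_combination -h2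
    rcases mul_eq_zero.1 h3 with h4 | h4
    · exact absurd h4 hthb
    · linear_combination h4
  rw [this]
  exact inv_mem hc

theorem exists_partner {f : K} (hf : f ∉ Fp p K) :
    ∃ g, g ∉ Fp p K ∧ PIndep p (th f) (th g) := by
  obtain ⟨y, hy⟩ := H.part (th f) (H.th_not_mem hf)
  have hy0 : y ≠ 0 := by
    rintro rfl
    exact hy (zero_mem _)
  obtain ⟨u, hu, hyu⟩ := H.surj y hy0
  have hu' : th u ∉ adj p (th f) := fun h => hy ((hyu.mem_adj_iff _).2 h)
  refine ⟨u, fun h => hu' (Fp_le_adj _ (H.th_mem_of_mem hu h)), H.th_not_mem hf, hu'⟩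

theorem exists_partner2 {f f' : K} (hf : f ∉ Fp p K) (hf' : f' ∉ Fp p K) :
    ∃ g, g ∉ Fp p K ∧ PIndep p (th f) (th g) ∧ PIndep p (th f') (th g) := by
  obtain ⟨y₁, hy₁⟩ := H.part (th f) (H.th_not_mem hf)
  obtain ⟨y₂, hy₂⟩ := H.part (th f') (H.th_not_mem hf')
  obtain ⟨y, hy, hy'⟩ : ∃ y, y ∉ adj p (th f) ∧ y ∉ adj p (th f') := by
    by_cases h1 : y₁ ∈ adj p (th f')
    · by_cases h2 : y₂ ∈ adj p (th f)
      · refine ⟨y₁ + y₂, fun h => hy₁ ?_, fun h => hy₂ ?_⟩
        · have := sub_mem h h2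
          rwa [add_sub_cancel_right] at this
        · have := sub_mem h h1
          rwa [add_sub_cancel_left] at this
      · exact ⟨y₂, h2, hy₂⟩
    · exact ⟨y₁, hy₁, h1⟩
  have hy0 : y ≠ 0 := by
    rintro rfl
    exact hy (zero_mem _)
  obtain ⟨u, hu, hyu⟩ := H.surj y hy0
  have hu1 : th u ∉ adj p (th f) := fun h => hy ((hyu.mem_adj_iff _).2 h)
  have hu2 : th u ∉ adj p (th f') := fun h => hy' ((hyu.mem_adj_iff _).2 h)
  exact ⟨u, fun h => hu1 (Fp_le_adj _ (H.th_mem_of_mem hu h)), ⟨H.th_not_mem hf, hu1⟩,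
    ⟨H.th_not_mem hf', hu2⟩⟩

end Hyp

/-- `z` is the normalised representative `α f` and `τ` the translation map `λ^f` of `f`. -/
def IsAl (p : ℕ) [Fact p.Prime] [CharP K p] [CharP L p] (th : K → L) (f : K) (z : L) (τ : K → L) :
    Prop :=
  PEq p (th f) z ∧ τ 1 = 1 ∧ τ 0 = 0 ∧
    ∀ c ∈ Fp p K, τ c ∈ Fp p L ∧ PEq p (th (f + c)) (z + τ c)

open Classical in
/-- the normalised representative `α f` (junk unless `f ∉ K^p`) -/
noncomputable def alv (p : ℕ) [Fact p.Prime] [CharP K p] [CharP L p] (th : K → L) (f : K) : L :=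
  if h : ∃ z : L, ∃ τ : K → L, IsAl p th f z τ then Classical.choose h else 0

open Classical in
/-- the translation map `λ^f` (junk unless `f ∉ K^p`) -/
noncomputable def lamv (p : ℕ) [Fact p.Prime] [CharP K p] [CharP L p] (th : K → L) (f : K) :
    K → L :=
  if h : ∃ z : L, ∃ τ : K → L, IsAl p th f z τ then Classical.choose (Classical.choose_spec h)
  else 0

theorem isAl_alv {f : K} (h : ∃ z : L, ∃ τ : K → L, IsAl p th f z τ) :
    IsAl p th f (alv p th f) (lamv p th f) := by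
  unfold alv lamv
  rw [dif_pos h, dif_pos h]
  exact Classical.choose_spec (Classical.choose_spec h)

namespace Hyp

variable (H : Hyp p th)
include H

/-- the line data of a generic pair give the normalised representative -/
theorem isAl_of_line {f g : K} {P Q : L} {lam : K → L} (h1 : lam 1 ≠ 0)
    (h0 : lam 0 = 0) (hF : ∀ c ∈ Fp p K, lam c ∈ Fp p L)
    (hl : ∀ c ∈ Fp p K, PEq p (th (f + c)) (P + lam c) ∧ PEq p (th (g - c)) (Q - lam c) ∧
        PEq p (th (f + g)) (P + Q)) :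
    IsAl p th f (P / lam 1) (fun c => lam c / lam 1) := by
  have hl1 : lam 1 ∈ Fp p L := hF 1 (one_mem _)
  have key : ∀ w : L, PEq p w (w / lam 1) := fun w =>
    PEq_iff.2 ⟨(lam 1)⁻¹, inv_mem hl1, inv_ne_zero h1, by rw [div_eq_inv_mul]⟩
  refine ⟨?_, div_self h1, by simp [h0], fun c hc => ⟨div_mem (hF c hc) hl1, ?_⟩⟩
  · have := (hl 0 (zero_mem _)).1
    rw [add_zero, h0, add_zero] at this
    exact this.trans (key P)
  · have := ((hl c hc).1).trans (key _)
    rwa [add_div] at this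

theorem exists_isAl {f : K} (hf : f ∉ Fp p K) : ∃ z : L, ∃ τ : K → L, IsAl p th f z τ := by
  obtain ⟨g, hg, hfg⟩ := H.exists_partner hf
  obtain ⟨P, Q, lam, h1, h0, hF, hl⟩ :=
    H.line f g (H.not_mem_ne_zero hf) (H.not_mem_ne_zero hg) hfg
  exact ⟨_, _, H.isAl_of_line h1 h0 hF hl⟩

theorem isAl {f : K} (hf : f ∉ Fp p K) : IsAl p th f (alv p th f) (lamv p th f) :=
  isAl_alv (H.exists_isAl hf)

theorem IsAl_unique {f : K} (hf : f ∉ Fp p K) {z z' : L} {τ τ' : K → L}
    (h : IsAl p th f z τ) (h' : IsAl p th f z' τ') : z = z' ∧ ∀ c ∈ Fp p K, τ c = τ' c := by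
  obtain ⟨hz, ht1, ht0, hc⟩ := h
  obtain ⟨hz', ht1', ht0', hc'⟩ := h'
  have hzF : z ∉ Fp p L := fun hh => H.th_not_mem hf (hz.mem_Fp_iff.2 hh)
  have hzz : z = z' := by
    apply PEq_normal_unique hzF (hz.symm.trans hz')
    have a := (hc 1 (one_mem _)).2
    have b := (hc' 1 (one_mem _)).2
    rw [ht1] at a
    rw [ht1'] at b
    exact a.symm.trans b
  refine ⟨hzz, fun c hcF => ?_⟩
  have a := (hc c hcF).2
  have b := (hc' c hcF).2
  rw [← hzz] at b
  exact PEq_add_unique hzF (hc c hcF).1 (hc' c hcF).1 (a.symm.trans b)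

theorem alv_PEq {f : K} (hf : f ∉ Fp p K) : PEq p (th f) (alv p th f) := (H.isAl hf).1

theorem alv_not_mem {f : K} (hf : f ∉ Fp p K) : alv p th f ∉ Fp p L := fun hh =>
  H.th_not_mem hf ((H.alv_PEq hf).mem_Fp_iff.2 hh)

theorem alv_ne_zero {f : K} (hf : f ∉ Fp p K) : alv p th f ≠ 0 := fun hh =>
  H.alv_not_mem hf (hh ▸ zero_mem _)

theorem lamv_one {f : K} (hf : f ∉ Fp p K) : lamv p th f 1 = 1 := (H.isAl hf).2.1

theorem lamv_zero {f : K} (hf : f ∉ Fp p K) : lamv p th f 0 = 0 := (H.isAl hf).2.2.1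

theorem lamv_mem {f c : K} (hf : f ∉ Fp p K) (hc : c ∈ Fp p K) : lamv p th f c ∈ Fp p L :=
  ((H.isAl hf).2.2.2 c hc).1

theorem th_add {f c : K} (hf : f ∉ Fp p K) (hc : c ∈ Fp p K) :
    PEq p (th (f + c)) (alv p th f + lamv p th f c) := ((H.isAl hf).2.2.2 c hc).2

theorem th_add_one {f : K} (hf : f ∉ Fp p K) : PEq p (th (f + 1)) (alv p th f + 1) := by
  have := H.th_add hf (one_mem _)
  rwa [H.lamv_one hf] at this

theorem add_not_mem {f c : K} (hf : f ∉ Fp p K) (hc : c ∈ Fp p K) : f + c ∉ Fp p K := fun h =>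
  hf (by simpa using sub_mem h hc)

theorem alv_eq_of {f : K} (hf : f ∉ Fp p K) {z : L} (h : PEq p (th f) z)
    (h1 : PEq p (th (f + 1)) (z + 1)) : alv p th f = z := by
  have hzF : alv p th f ∉ Fp p L := H.alv_not_mem hf
  exact PEq_normal_unique hzF ((H.alv_PEq hf).symm.trans h) ((H.th_add_one hf).symm.trans h1)

/-- A3: lines go to lines (coefficients `1, 1`). -/
theorem line_one {u v : K} (hu : u ≠ 0) (hv : v ≠ 0) (hvu : v / u ∉ Fp p K) :
    ∃ t ∈ Fp p L, t ≠ 0 ∧ PEq p (th (u + v)) (th u + t * th v) := by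
  set w := v / u with hw
  have hw0 : w ≠ 0 := H.not_mem_ne_zero hvu
  have hw1 : w + 1 ≠ 0 := H.not_mem_ne_zero (H.add_not_mem hvu (one_mem _))
  have huv : u + v = u * (w + 1) := by rw [hw]; field_simp; ring
  -- th w = c⁻¹ * alv w
  obtain ⟨c, hc, hc0, hcw⟩ := PEq_iff.1 (H.alv_PEq hvu)
  -- th v = d * (th u * th w)
  have hmul := H.mul u w hu hw0
  have huw : u * w = v := by rw [hw]; field_simp
  rw [huw] at hmul
  obtain ⟨d, hd, hd0, hdv⟩ := PEq_iff.1 hmul
  refine ⟨c / d, div_mem hc hd, div_ne_zero hc0 hd0, ?_⟩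
  rw [huv]
  refine (H.mul u (w + 1) hu hw1).symm.trans ?_
  have h2 : PEq p (th u * th (w + 1)) (th u * (alv p th w + 1)) :=
    (PEq.refl _).mul (H.th_add_one hvu)
  have h3 : th u * (alv p th w + 1) = th u + c / d * th v := by
    rw [hdv, hcw]; field_simp; ring
  rwa [h3] at h2

/-- auxiliary for A4: one of the two symmetric lines through `1 + f + g`. -/
theorem line_aux {f g : K} (hf : f ∉ Fp p K) (hg : g ∉ Fp p K)
    (hfg : PIndep p (th f) (th g)) :
    ∃ A B : L, A ∈ Fp p L ∧ B ∈ Fp p L ∧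
      th (f + 1 + g) = A + A * alv p th f + B * alv p th g := by
  have hx : PEq p (th f) (alv p th f) := H.alv_PEq hf
  have hy : PEq p (th g) (alv p th g) := H.alv_PEq hg
  have hg0 := H.not_mem_ne_zero hg
  have hf1 : f + 1 ≠ 0 := H.not_mem_ne_zero (H.add_not_mem hf (one_mem _))
  have hq : g / (f + 1) ∉ Fp p K := by
    intro hc
    apply hfg.2
    have hc0 : g / (f + 1) ≠ 0 := div_ne_zero hg0 hf1
    have h1 : PEq p (th (f + 1)) (th g) := by
      have := H.th_mul_Fp hc hc0 hf1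
      rwa [div_mul_cancel₀ g hf1] at this
    have h2 : PEq p (alv p th f + 1) (th g) := (H.th_add_one hf).symm.trans h1
    rw [hx.adj_eq]
    exact h2.mem_adj _ (add_mem (self_mem_adj _) (one_mem _))
  obtain ⟨t, ht, ht0, hline⟩ := H.line_one hf1 hg0 hq
  obtain ⟨k, hk, hk0, hk'⟩ := PEq_iff.1 hline.symm
  obtain ⟨a, ha, ha0, ha'⟩ := PEq_iff.1 (H.th_add_one hf).symm
  obtain ⟨b, hb, hb0, hb'⟩ := PEq_iff.1 hy.symm
  refine ⟨k * a, k * t * b, mul_mem hk ha, mul_mem (mul_mem hk ht) hb, ?_⟩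
  rw [hk', ha', hb']; ring

/-- A4: additivity on generic pairs, and the second formula of the Line Lemma. -/
theorem add_generic {f g : K} (hf : f ∉ Fp p K) (hg : g ∉ Fp p K)
    (hfg : PIndep p (th f) (th g)) :
    f + g ∉ Fp p K ∧ alv p th (f + g) = alv p th f + alv p th g ∧
      ∀ c ∈ Fp p K, PEq p (th (g - c)) (alv p th g - lamv p th f c) := by
  have hx : PEq p (th f) (alv p th f) := H.alv_PEq hf
  have hy : PEq p (th g) (alv p th g) := H.alv_PEq hg
  have hxy : PIndep p (alv p th f) (alv p th g) := hfg.of_PEq hx hy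
  have hgf : PIndep p (th g) (th f) := H.symm _ _ hfg
  have hf0 := H.not_mem_ne_zero hf
  have hg0 := H.not_mem_ne_zero hg
  obtain ⟨P, Q, lam, h1, h0, hF, hl⟩ := H.line f g hf0 hg0 hfg
  have hl1 : lam 1 ∈ Fp p L := hF 1 (one_mem _)
  have hAl := H.isAl_of_line h1 h0 hF hl
  obtain ⟨hP, hlam⟩ := H.IsAl_unique hf (H.isAl hf) hAl
  obtain ⟨A₁, B₁, hA₁, hB₁, hL1⟩ := H.line_aux hf hg hfg
  obtain ⟨A₂, B₂, hA₂, hB₂, hL2⟩ := H.line_aux hg hf hgf
  generalize alv p th f = x at *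
  generalize alv p th g = y at *
  have hP' : P = lam 1 * x := by rw [hP]; field_simp
  have hQ : PEq p (th g) Q := by
    have := (hl 0 (zero_mem _)).2.1
    rwa [sub_zero, h0, sub_zero] at this
  obtain ⟨e', he', he'0, hQe⟩ := PEq_iff.1 (hy.symm.trans hQ)
  obtain ⟨e, heF, he0, hQ'⟩ : ∃ e ∈ Fp p L, e ≠ 0 ∧ Q = lam 1 * (e * y) :=
    ⟨e' / lam 1, div_mem he' hl1, div_ne_zero he'0 h1, by rw [hQe]; field_simp⟩
  have hPQ : PEq p (th (f + g)) (x + e * y) := by
    have := (hl 0 (zero_mem _)).2.2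
    rw [hP', hQ', ← mul_add] at this
    exact this.trans (PEq_iff.2 ⟨(lam 1)⁻¹, inv_mem hl1, inv_ne_zero h1, by field_simp⟩)
  have hxeyF : x + e * y ∉ Fp p L := by
    intro hh
    have := indep3 hxy hh (zero_mem _) (zero_mem _) (zero_mem _) (one_mem _) heF
      (show (x + e * y) + 0 * x + 0 * y = 0 + 1 * x + e * y by ring)
    exact zero_ne_one this.2.1
  have hfg0 : f + g ≠ 0 := by
    intro hh
    rw [hh, H.zero] at hPQ
    obtain ⟨c, -, -, hc⟩ := PEq_iff.1 hPQ
    rw [mul_zero] at hc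
    exact hxeyF (hc ▸ zero_mem _)
  have hfgF : f + g ∉ Fp p K := fun hh =>
    hxeyF (hPQ.mem_Fp (H.th_mem_of_mem hfg0 hh))
  -- the three lines through `1 + f + g`
  obtain ⟨A₃, B₃, hA₃, hB₃, hB₃0, hL3⟩ : ∃ A B : L, A ∈ Fp p L ∧ B ∈ Fp p L ∧ B ≠ 0 ∧
      th (1 + (f + g)) = A + B * x + (B * e) * y := by
    obtain ⟨t, ht, ht0, hline⟩ := H.line_one one_ne_zero hfg0 (by rwa [div_one])
    obtain ⟨k, hk, hk0, hk'⟩ := PEq_iff.1 hline.symm
    obtain ⟨b, hb, hb0, hb'⟩ := PEq_iff.1 hPQ.symm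
    refine ⟨k * th 1, k * t * b, mul_mem hk H.th_one_mem, mul_mem (mul_mem hk ht) hb,
      mul_ne_zero (mul_ne_zero hk0 ht0) hb0, ?_⟩
    rw [hk', hb']; ring
  have e13 : f + 1 + g = 1 + (f + g) := by ring
  have e23 : g + 1 + f = 1 + (f + g) := by ring
  rw [e13, hL3] at hL1
  rw [e23, hL3] at hL2
  have i1 := indep3 hxy hA₃ hB₃ (mul_mem hB₃ heF) hA₁ hA₁ hB₁ hL1
  have hL2' : A₃ + B₃ * x + B₃ * e * y = A₂ + B₂ * x + A₂ * y := by rw [hL2]; ring
  have i2 := indep3 hxy hA₃ hB₃ (mul_mem hB₃ heF) hA₂ hB₂ hA₂ hL2'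
  have he1 : e = 1 := by
    have : B₃ * e = B₃ := by rw [i2.2.2, ← i2.1, i1.1, ← i1.2.1]
    exact mul_left_cancel₀ hB₃0 (by rw [this, mul_one])
  rw [he1, one_mul] at hPQ
  rw [he1, one_mul] at hQ'
  have hAB : A₃ = B₃ := by rw [i1.1, ← i1.2.1]
  have hfg1 : PEq p (th (f + g + 1)) (x + y + 1) := by
    rw [add_comm (f + g) 1, hL3, he1, hAB]
    exact PEq_iff.2 ⟨B₃⁻¹, inv_mem hB₃, inv_ne_zero hB₃0, by field_simp; ring⟩
  refine ⟨hfgF, H.alv_eq_of hfgF hPQ hfg1, fun c hc => ?_⟩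
  have h4 := (hl c hc).2.1
  have hlc : lam c = lam 1 * lamv p th f c := by rw [hlam c hc]; field_simp
  rw [hQ', hlc, ← mul_sub] at h4
  exact h4.trans (PEq_iff.2 ⟨(lam 1)⁻¹, inv_mem hl1, inv_ne_zero h1, by field_simp⟩)

/-- A5 (i), first relation: `λ^g(-c) = -λ^f(c)` for a generic pair. -/
theorem lamv_neg_of_generic {f g : K} (hf : f ∉ Fp p K) (hg : g ∉ Fp p K)
    (hfg : PIndep p (th f) (th g)) {c : K} (hc : c ∈ Fp p K) :
    lamv p th g (-c) = -lamv p th f c := by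
  have h4 := (H.add_generic hf hg hfg).2.2 c hc
  have h5 := H.th_add hg (neg_mem hc)
  rw [← sub_eq_add_neg] at h5
  have h6 := h4.symm.trans h5
  rw [sub_eq_add_neg] at h6
  exact (PEq_add_unique (H.alv_not_mem hg) (neg_mem (H.lamv_mem hf hc))
    (H.lamv_mem hg (neg_mem hc)) h6).symm

theorem generic_add_right {f g : K} (hf : f ∉ Fp p K) (hg : g ∉ Fp p K)
    (hfg : PIndep p (th f) (th g)) : PIndep p (th f) (th (f + g)) := by
  obtain ⟨hfgF, hadd, -⟩ := H.add_generic hf hg hfg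
  have hxy : PIndep p (alv p th f) (alv p th g) := hfg.of_PEq (H.alv_PEq hf) (H.alv_PEq hg)
  have h1 : PIndep p (alv p th f) (alv p th f + alv p th g) :=
    ⟨hxy.1, fun h => hxy.2 (by simpa using sub_mem h (self_mem_adj (alv p th f)))⟩
  rw [← hadd] at h1
  exact h1.of_PEq (H.alv_PEq hf).symm (H.alv_PEq hfgF).symm

theorem generic_add_left {f g : K} (hf : f ∉ Fp p K) (hg : g ∉ Fp p K)
    (hfg : PIndep p (th f) (th g)) : PIndep p (th (f + g)) (th g) := by
  obtain ⟨hfgF, hadd, -⟩ := H.add_generic hf hg hfg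
  have hxy : PIndep p (alv p th f) (alv p th g) := hfg.of_PEq (H.alv_PEq hf) (H.alv_PEq hg)
  have hyx := H.symm _ _ hxy
  have h1 : PIndep p (alv p th g) (alv p th f + alv p th g) :=
    ⟨hyx.1, fun h => hyx.2 (by simpa using sub_mem h (self_mem_adj (alv p th g)))⟩
  have h2 := H.symm _ _ h1
  rw [← hadd] at h2
  exact h2.of_PEq (H.alv_PEq hfgF).symm (H.alv_PEq hg).symm

/-- A5 (i): the translation maps of a generic pair agree on `K^p`. -/
theorem lamv_generic {f g : K} (hf : f ∉ Fp p K) (hg : g ∉ Fp p K)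
    (hfg : PIndep p (th f) (th g)) {c : K} (hc : c ∈ Fp p K) :
    lamv p th g c = lamv p th f c := by
  have hfgF := (H.add_generic hf hg hfg).1
  have i1 : ∀ c ∈ Fp p K, lamv p th g (-c) = -lamv p th f c := fun c hc =>
    H.lamv_neg_of_generic hf hg hfg hc
  have i2 : ∀ c ∈ Fp p K, lamv p th g (-c) = -lamv p th (f + g) c := fun c hc =>
    H.lamv_neg_of_generic hfgF hg (H.generic_add_left hf hg hfg) hc
  have i3 : ∀ c ∈ Fp p K, lamv p th (f + g) (-c) = -lamv p th f c := fun c hc =>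
    H.lamv_neg_of_generic hf hfgF (H.generic_add_right hf hg hfg) hc
  have j1 : ∀ c ∈ Fp p K, lamv p th f c = lamv p th (f + g) c := fun c hc =>
    neg_injective ((i1 c hc).symm.trans (i2 c hc))
  have j2 : ∀ c ∈ Fp p K, lamv p th f (-c) = -lamv p th f c := fun c hc => by
    rw [j1 (-c) (neg_mem hc)]; exact i3 c hc
  have := i1 (-c) (neg_mem hc)
  rw [neg_neg, j2 c hc, neg_neg] at this
  exact this

/-- A5 (i): one translation map `τ` for all `f`. -/
theorem lamv_eq {f f' : K} (hf : f ∉ Fp p K) (hf' : f' ∉ Fp p K) {c : K} (hc : c ∈ Fp p K) :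
    lamv p th f c = lamv p th f' c := by
  obtain ⟨g, hg, h1, h2⟩ := H.exists_partner2 hf hf'
  rw [← H.lamv_generic hf hg h1 hc, ← H.lamv_generic hf' hg h2 hc]

theorem alv_add_aux {f c : K} (hf : f ∉ Fp p K) (hc : c ∈ Fp p K) :
    ∃ e ∈ Fp p L, e ≠ 0 ∧ alv p th (f + c) = e * (alv p th f + lamv p th f c) ∧
      e * lamv p th f c + 1 = e * lamv p th f (c + 1) := by
  have hfc : f + c ∉ Fp p K := H.add_not_mem hf hc
  obtain ⟨e, he, he0, hz⟩ := PEq_iff.1 ((H.th_add hf hc).symm.trans (H.alv_PEq hfc))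
  refine ⟨e, he, he0, hz, ?_⟩
  have h1 := H.th_add_one hfc
  have h2 := H.th_add hf (add_mem hc (one_mem _))
  rw [← add_assoc] at h2
  obtain ⟨d, hd, hd0, hd'⟩ := PEq_iff.1 (h2.symm.trans h1)
  rw [hz] at hd'
  have h3 : (e * lamv p th f c + 1) + e * alv p th f
      = d * lamv p th f (c + 1) + d * alv p th f := by linear_combination hd'
  have := indep2 (H.alv_not_mem hf) (add_mem (mul_mem he (H.lamv_mem hf hc)) (one_mem _)) he
    (mul_mem hd (H.lamv_mem hf (add_mem hc (one_mem _)))) hd h3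
  rw [this.1, this.2]

/-- A5 (ii). -/
theorem alv_add_Fp {f c : K} (hf : f ∉ Fp p K) (hc : c ∈ Fp p K) :
    alv p th (f + c) = alv p th f + lamv p th f c ∧
      lamv p th f (c + 1) = lamv p th f c + 1 := by
  obtain ⟨g, hg, hfg⟩ := H.exists_partner hf
  obtain ⟨hfgF, hadd, -⟩ := H.add_generic hf hg hfg
  have hfc : f + c ∉ Fp p K := H.add_not_mem hf hc
  obtain ⟨e, he, he0, hz, hrel⟩ := H.alv_add_aux hf hc
  obtain ⟨e', he', he'0, hz', hrel'⟩ := H.alv_add_aux hfgF hc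
  rw [H.lamv_eq hfgF hf hc, H.lamv_eq hfgF hf (add_mem hc (one_mem _))] at hrel'
  rw [H.lamv_eq hfgF hf hc, hadd] at hz'
  -- (f + c, g) is generic
  have hfcg : PIndep p (th (f + c)) (th g) := by
    refine ⟨H.th_not_mem hfc, fun h => hfg.2 ?_⟩
    refine adj_le ?_ h
    exact (H.th_add hf hc).symm.mem_adj _ (add_mem ((H.alv_PEq hf).mem_adj _ (self_mem_adj _))
      (Fp_le_adj _ (H.lamv_mem hf hc)))
  have hadd2 := (H.add_generic hfc hg hfcg).2.1
  have e1 : f + c + g = f + g + c := by ring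
  rw [e1, hz', hz] at hadd2
  have hy0 : alv p th g ≠ 0 := H.alv_ne_zero hg
  generalize alv p th f = x at *
  generalize alv p th g = y at *
  generalize lamv p th f c = t at *
  generalize lamv p th f (c + 1) = t1 at *
  have hee : e = e' := by
    have a1 : e * (t1 - t) = 1 := by linear_combination -hrel
    have a2 : e' * (t1 - t) = 1 := by linear_combination -hrel'
    have ht : t1 - t ≠ 0 := by
      intro h0
      rw [h0, mul_zero] at a1
      exact zero_ne_one a1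
    exact mul_right_cancel₀ ht (a1.trans a2.symm)
  have he1 : e = 1 := by
    rw [← hee] at hadd2
    have h5 : (e - 1) * y = 0 := by linear_combination hadd2
    rcases mul_eq_zero.1 h5 with h6 | h6
    · exact sub_eq_zero.1 h6
    · exact absurd h6 hy0
  rw [he1] at hz hrel
  exact ⟨by rw [hz, one_mul], by linear_combination -hrel⟩

/-- A5: `τ` is additive on `K^p`. -/
theorem lamv_add {f c c' : K} (hf : f ∉ Fp p K) (hc : c ∈ Fp p K) (hc' : c' ∈ Fp p K) :
    lamv p th f (c + c') = lamv p th f c + lamv p th f c' := by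
  have hfc := H.add_not_mem hf hc
  have h1 := (H.alv_add_Fp hf (add_mem hc hc')).1
  have h2 := (H.alv_add_Fp hfc hc').1
  rw [(H.alv_add_Fp hf hc).1, H.lamv_eq hfc hf hc'] at h2
  rw [← add_assoc, h2] at h1
  linear_combination -h1

theorem exists_nonpow : ∃ f : K, f ∉ Fp p K := by
  obtain ⟨x, hx⟩ := H.np
  have hx0 : x ≠ 0 := by
    rintro rfl
    exact hx (zero_mem _)
  obtain ⟨u, hu, hxu⟩ := H.surj x hx0
  exact ⟨u, fun h => hx (hxu.mem_Fp_iff.2 (H.th_mem_of_mem hu h))⟩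

/-- the translation map never vanishes on nonzero `p`-th powers -/
theorem lamv_ne_zero {f c : K} (hf : f ∉ Fp p K) (hc : c ∈ Fp p K) (hc0 : c ≠ 0) :
    lamv p th f c ≠ 0 := by
  intro h0
  have h1 := H.th_add hf hc
  rw [h0, add_zero] at h1
  have h2 : PEq p (th (f + c)) (th f) := h1.trans (H.alv_PEq hf).symm
  have hf0 := H.not_mem_ne_zero hf
  have hq := H.th_div (H.not_mem_ne_zero (H.add_not_mem hf hc)) hf0 h2
  have hq1 : c / f ∈ Fp p K := by
    have : c / f = (f + c) / f - 1 := by field_simp; ring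
    rw [this]
    exact sub_mem hq (one_mem _)
  apply hf
  have : f = c / (c / f) := by field_simp
  rw [this]
  exact div_mem hc hq1

end Hyp

open Classical in
/-- the additive map: `τ` on `K^p`, the normalised representative elsewhere -/
noncomputable def alFun (p : ℕ) [Fact p.Prime] [CharP K p] [CharP L p] (th : K → L) (f₀ : K)
    (u : K) : L :=
  if u ∈ Fp p K then lamv p th f₀ u else alv p th u

theorem alFun_of_mem {f₀ u : K} (hu : u ∈ Fp p K) : alFun p th f₀ u = lamv p th f₀ u := by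
  unfold alFun; rw [if_pos hu]

theorem alFun_of_not_mem {f₀ u : K} (hu : u ∉ Fp p K) : alFun p th f₀ u = alv p th u := by
  unfold alFun; rw [if_neg hu]

namespace Hyp

variable (H : Hyp p th)
include H

/-- A6, the non-generic case. -/
theorem alv_add_nongeneric {f₀ u v : K} (hf₀ : f₀ ∉ Fp p K) (hu : u ∉ Fp p K) (hv : v ∉ Fp p K)
    (hvu : th v ∈ adj p (th u)) :
    alFun p th f₀ (u + v) = alv p th u + alv p th v := by
  have hu0 := H.not_mem_ne_zero hu
  have hv0 := H.not_mem_ne_zero hv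
  obtain ⟨h, hh, huh⟩ := H.exists_partner hu
  have hvh : PIndep p (th v) (th h) := ⟨H.th_not_mem hv, fun hmem => huh.2 (adj_le hvu hmem)⟩
  obtain ⟨hvhF, hvhadd, -⟩ := H.add_generic hv hh hvh
  have halv_v : alv p th v ∈ adj p (th u) := (H.alv_PEq hv).mem_adj _ hvu
  have huvh : PIndep p (th u) (th (v + h)) := by
    refine ⟨H.th_not_mem hu, fun hmem => huh.2 ?_⟩
    have h1 : alv p th (v + h) ∈ adj p (th u) := (H.alv_PEq hvhF).mem_adj _ hmem
    rw [hvhadd] at h1
    have h2 : alv p th h ∈ adj p (th u) := by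
      have := sub_mem h1 halv_v
      rwa [add_sub_cancel_left] at this
    exact (H.alv_PEq hh).symm.mem_adj _ h2
  have E1 := (H.add_generic hu hvhF huvh).2.1
  rw [hvhadd] at E1
  by_cases huv : u + v ∈ Fp p K
  · rw [alFun_of_mem huv]
    have h3 := (H.alv_add_Fp hh huv).1
    rw [H.lamv_eq hh hf₀ huv] at h3
    have e1 : h + (u + v) = u + (v + h) := by ring
    rw [e1, E1] at h3
    linear_combination -h3
  · rw [alFun_of_not_mem huv]
    have huv0 := H.not_mem_ne_zero huv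
    have hclaim : th (u + v) ∈ adj p (th u) := by
      by_cases hq : v / u ∈ Fp p K
      · have hc : 1 + v / u ∈ Fp p K := add_mem (one_mem _) hq
        have e2 : (1 + v / u) * u = u + v := by field_simp
        have hc0 : 1 + v / u ≠ 0 := by
          intro h0
          rw [h0, zero_mul] at e2
          exact huv0 e2.symm
        have := H.th_mul_Fp hc hc0 hu0
        rw [e2] at this
        exact this.mem_adj _ (self_mem_adj _)
      · obtain ⟨t, ht, -, hline⟩ := H.line_one hu0 hv0 hq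
        exact hline.symm.mem_adj _ (add_mem (self_mem_adj _) (mul_mem (Fp_le_adj _ ht) hvu))
    have huvh' : PIndep p (th (u + v)) (th h) :=
      ⟨H.th_not_mem huv, fun hmem => huh.2 (adj_le hclaim hmem)⟩
    have E2 := (H.add_generic huv hh huvh').2.1
    have e3 : u + v + h = u + (v + h) := by ring
    rw [e3, E1] at E2
    linear_combination -E2

/-- A6: additivity. -/
theorem alFun_add {f₀ : K} (hf₀ : f₀ ∉ Fp p K) (u v : K) :
    alFun p th f₀ (u + v) = alFun p th f₀ u + alFun p th f₀ v := by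
  by_cases hu : u ∈ Fp p K
  · by_cases hv : v ∈ Fp p K
    · rw [alFun_of_mem hu, alFun_of_mem hv, alFun_of_mem (add_mem hu hv)]
      exact H.lamv_add hf₀ hu hv
    · have huv : u + v ∉ Fp p K := by rw [add_comm]; exact H.add_not_mem hv hu
      rw [alFun_of_mem hu, alFun_of_not_mem hv, alFun_of_not_mem huv, add_comm u v,
        (H.alv_add_Fp hv hu).1, H.lamv_eq hv hf₀ hu, add_comm]
  · by_cases hv : v ∈ Fp p K
    · have huv : u + v ∉ Fp p K := H.add_not_mem hu hv
      rw [alFun_of_not_mem hu, alFun_of_mem hv, alFun_of_not_mem huv,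
        (H.alv_add_Fp hu hv).1, H.lamv_eq hu hf₀ hv]
    · rw [alFun_of_not_mem hu, alFun_of_not_mem hv]
      by_cases hgen : PIndep p (th u) (th v)
      · obtain ⟨huv, hadd, -⟩ := H.add_generic hu hv hgen
        rw [alFun_of_not_mem huv, hadd]
      · have hvu : th v ∈ adj p (th u) := by
          by_contra hh
          exact hgen ⟨H.th_not_mem hu, hh⟩
        exact H.alv_add_nongeneric hf₀ hu hv hvu

/-- **Assembly, additive part (A2–A6).** -/
theorem exists_additive :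
    ∃ al : K → L, (∀ u v, al (u + v) = al u + al v) ∧ al 1 = 1 ∧
      ∀ u, u ≠ 0 → PEq p (th u) (al u) := by
  obtain ⟨f₀, hf₀⟩ := H.exists_nonpow
  refine ⟨alFun p th f₀, H.alFun_add hf₀, ?_, fun u hu0 => ?_⟩
  · rw [alFun_of_mem (one_mem _)]
    exact H.lamv_one hf₀
  · by_cases hu : u ∈ Fp p K
    · rw [alFun_of_mem hu]
      exact PEq_of_mem_Fp (H.th_mem_of_mem hu0 hu) (H.lamv_mem hf₀ hu) (H.ne_zero u hu0)
        (H.lamv_ne_zero hf₀ hu hu0)
    · rw [alFun_of_not_mem hu]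
      exact H.alv_PEq hu

/-- A8 (core): multiplicativity against a non-`p`-th power. -/
theorem mul_aux {al : K → L} (hadd : ∀ u v, al (u + v) = al u + al v) (h1 : al 1 = 1)
    (hrep : ∀ u, u ≠ 0 → PEq p (th u) (al u)) {u w : K} (hu : u ≠ 0) (hw : w ∉ Fp p K) :
    al (u * w) = al u * al w := by
  have hw0 := H.not_mem_ne_zero hw
  have hw1F : w + 1 ∉ Fp p K := H.add_not_mem hw (one_mem _)
  have hw1 := H.not_mem_ne_zero hw1F
  have key : ∀ v : K, v ≠ 0 → ∃ e ∈ Fp p L, al (u * v) = e * (al u * al v) := by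
    intro v hv
    have a1 : PEq p (al u * al v) (th (u * v)) :=
      ((hrep u hu).symm.mul (hrep v hv).symm).trans (H.mul u v hu hv)
    obtain ⟨e, he, -, h⟩ := PEq_iff.1 (a1.trans (hrep (u * v) (mul_ne_zero hu hv)))
    exact ⟨e, he, h⟩
  obtain ⟨e, he, h⟩ := key w hw0
  obtain ⟨e', he', h'⟩ := key (w + 1) hw1
  rw [mul_add, mul_one, hadd, hadd, h1, h] at h'
  have halu : al u ≠ 0 := (hrep u hu).ne_zero (H.ne_zero u hu)
  have hwF : al w ∉ Fp p L := fun hh => H.th_not_mem hw ((hrep w hw0).mem_Fp_iff.2 hh)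
  have h2 : (1 : L) + e * al w = e' + e' * al w := by
    have h3 : al u * ((1 + e * al w) - (e' + e' * al w)) = 0 := by linear_combination h'
    rcases mul_eq_zero.1 h3 with h4 | h4
    · exact absurd h4 halu
    · exact sub_eq_zero.1 h4
  have := indep2 hwF (one_mem _) he he' he' h2
  rw [h, this.2, ← this.1, one_mul]

/-- A7–A8: an additive normalised representative is multiplicative. -/
theorem mul_of_additive {al : K → L} (hadd : ∀ u v, al (u + v) = al u + al v) (h1 : al 1 = 1)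
    (hrep : ∀ u, u ≠ 0 → PEq p (th u) (al u)) (u v : K) : al (u * v) = al u * al v := by
  have h0 : al 0 = 0 := by
    have := hadd 0 0
    rw [add_zero] at this
    exact left_eq_add.1 this
  by_cases hu : u = 0
  · rw [hu, zero_mul, h0, zero_mul]
  by_cases hv : v = 0
  · rw [hv, mul_zero, h0, mul_zero]
  by_cases hvF : v ∈ Fp p K
  · by_cases huF : u ∈ Fp p K
    · obtain ⟨t, ht⟩ := H.exists_nonpow
      have ht0 := H.not_mem_ne_zero ht
      have hvt : v * t ∉ Fp p K := fun hh => ht (by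
        have := div_mem hh hvF
        rwa [mul_div_cancel_left₀ t hv] at this)
      have e1 := H.mul_aux hadd h1 hrep hu hvt
      rw [H.mul_aux hadd h1 hrep hv ht, ← mul_assoc,
        H.mul_aux hadd h1 hrep (mul_ne_zero hu hv) ht] at e1
      have halt : al t ≠ 0 := (hrep t ht0).ne_zero (H.ne_zero t ht0)
      exact mul_right_cancel₀ halt (by rw [e1]; ring)
    · rw [mul_comm u v, H.mul_aux hadd h1 hrep hv huF, mul_comm]
  · exact H.mul_aux hadd h1 hrep hu hvF

/-- **Assembly (A2–A8).**  A representative map satisfying the hypotheses `Hyp` is induced, up to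
`p`-th powers, by a ring homomorphism `K →+* L`. -/
theorem exists_ringHom : ∃ α : K →+* L, ∀ u, u ≠ 0 → PEq p (th u) (α u) := by
  obtain ⟨al, hadd, h1, hrep⟩ := H.exists_additive
  have h0 : al 0 = 0 := by
    have := hadd 0 0
    rw [add_zero] at this
    exact left_eq_add.1 this
  exact ⟨{ toFun := al, map_one' := h1, map_mul' := H.mul_of_additive hadd h1 hrep,
           map_zero' := h0, map_add' := hadd }, hrep⟩

end Hyp

end main

end Crest.Agent.Helper33.S0010
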